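import Vale.Agent.P233.H886.KD3
import Vale.Agent.P233.N2.RA.IfHK

/-! P233, RCDA: the blocks KD2 and KD3 (literal statements of `H994/RKDef`). -/

set_option linter.all false

open MeasureTheory Filter Topology
open scoped ENNReal NNReal

universe u

namespace Vale.Agent.P233.N2.RA

theorem NSp.sigmaFin886 {M : Type u} [MetricSpace M] [MeasurableSpace M] [BorelSpace M]
    {m : Measure M} {n : ℕ} {K : ℝ} {θ : M → ℝ} (h : NSp m n K θ) : SigmaFinite m := by
  obtain ⟨x₀, -⟩ := h.growth
  exact ⟨⟨{ set := fun n : ℕ => Metric.ball x₀ n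
            set_mem := fun _ => trivial
            finite := fun n => h.fin x₀ n
            spanning := by
              rw [Set.eq_univ_iff_forall]
              intro x
              obtain ⟨n, hn⟩ := exists_nat_gt (dist x x₀)
              exact Set.mem_iUnion.mpr ⟨n, Metric.mem_ball.mpr hn⟩ }⟩⟩

theorem blk_KD2 : Blk_KD2.{u} := by
  intro M _ _ _ _ _ m n K θ h hK
  exact h.isGamma.kd2 hK

theorem blk_KD3 : Blk_KD3.{u} := by
  intro M _ _ _ _ _ m n K θ h hB hK
  haveI := h.sigmaFin886
  exact h.isGamma.kd3 hB (by exact_mod_cast h.n_pos) hK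

end Vale.Agent.P233.N2.RA

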